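import Mathlib

/-!
# The standard map on the torus

`stdMap k (x, y) = (x + y + k sin (2 π x), y + k sin (2 π x))` on `(ℝ / ℤ) × (ℝ / ℤ)`.
-/

namespace Vale.Agent.Lib.P108

/-- The function `t ↦ sin (2 π t)` has period `1`. -/
theorem sin_two_pi_periodic : Function.Periodic (fun t : ℝ => Real.sin (2 * Real.pi * t)) 1 := by
  intro t
  show Real.sin (2 * Real.pi * (t + 1)) = Real.sin (2 * Real.pi * t)
  rw [mul_add, mul_one, Real.sin_add_two_pi]

/-- The function `x ↦ sin (2 π x)` on the circle `ℝ / ℤ`. -/
noncomputable def circSin : UnitAddCircle → ℝ := sin_two_pi_periodic.lift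

theorem circSin_coe (x : ℝ) : circSin (x : UnitAddCircle) = Real.sin (2 * Real.pi * x) :=
  Function.Periodic.lift_coe sin_two_pi_periodic x

/-- The standard map `f_k (x, y) = (x + y + k sin (2 π x), y + k sin (2 π x))` on the torus
`(ℝ / ℤ) × (ℝ / ℤ)`. -/
noncomputable def stdMap (k : ℝ) (z : UnitAddCircle × UnitAddCircle) :
    UnitAddCircle × UnitAddCircle :=
  (z.1 + z.2 + ((k * circSin z.1 : ℝ) : UnitAddCircle),
    z.2 + ((k * circSin z.1 : ℝ) : UnitAddCircle))

theorem stdMap_coe (k x y : ℝ) :
    stdMap k ((x : UnitAddCircle), (y : UnitAddCircle))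
      = (((x + y + k * Real.sin (2 * Real.pi * x) : ℝ) : UnitAddCircle),
          ((y + k * Real.sin (2 * Real.pi * x) : ℝ) : UnitAddCircle)) := by
  simp only [stdMap, circSin_coe, AddCircle.coe_add]

theorem continuous_circSin : Continuous circSin := by
  have hq := QuotientAddGroup.isQuotientMap_mk (AddSubgroup.zmultiples (1 : ℝ))
  rw [hq.continuous_iff]
  have h : circSin ∘ (QuotientAddGroup.mk : ℝ → ℝ ⧸ AddSubgroup.zmultiples (1 : ℝ))
      = fun t : ℝ => Real.sin (2 * Real.pi * t) := by
    funext t
    exact circSin_coe t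
  rw [h]
  fun_prop

theorem continuous_stdMap (k : ℝ) : Continuous (stdMap k) := by
  unfold stdMap
  have h1 : Continuous fun z : UnitAddCircle × UnitAddCircle =>
      ((k * circSin z.1 : ℝ) : UnitAddCircle) :=
    (AddCircle.continuous_mk' (1 : ℝ)).comp
      (continuous_const.mul (continuous_circSin.comp continuous_fst))
  exact ((continuous_fst.add continuous_snd).add h1).prodMk (continuous_snd.add h1)

end Vale.Agent.Lib.P108
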