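import Mathlib

/-!
# A lower bound for topological entropy from separated orbit segments

If for every `M` there are `2 ^ M` points whose orbit segments of length `3 M` are pairwise
`ε`-separated, then the topological entropy (Bowen-Dinaburg, in the form of covers and nets)
of the map on the whole space is at least `log 2 / 3`.
-/

namespace Vale.Agent.Lib.P108

open Filter Topology Uniformity

/-- A finite set of points with pairwise `ε`-separated orbit segments of length `n` is a
dynamical net for the entourage of distances smaller than `ε / 2`. -/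
theorem entropyAux_isDynNetIn {X : Type*} [PseudoMetricSpace X] (T : X → X) (ε : ℝ) (n : ℕ)
    (s : Finset X)
    (hs : ∀ x ∈ s, ∀ y ∈ s, x ≠ y → ∃ i, i < n ∧ ε ≤ dist (T^[i] x) (T^[i] y)) :
    Dynamics.IsDynNetIn T Set.univ {p : X × X | dist p.1 p.2 < ε / 2} n (s : Set X) := by
  refine ⟨Set.subset_univ _, ?_⟩
  intro x hx y hy hxy
  rw [Function.onFun, Set.disjoint_left]
  intro z hzx hzy
  obtain ⟨i, hi, hdist⟩ := hs x (Finset.mem_coe.mp hx) y (Finset.mem_coe.mp hy) hxy
  rw [Dynamics.mem_ball_dynEntourage] at hzx hzy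
  have h1 : dist (T^[i] x) (T^[i] z) < ε / 2 := hzx i hi
  have h2 : dist (T^[i] y) (T^[i] z) < ε / 2 := hzy i hi
  have h3 := dist_triangle_right (T^[i] x) (T^[i] y) (T^[i] z)
  linarith

/-- The value of the extended exponential at `(log 2 / 3) * (3 M)`. -/
theorem entropyAux_exp (M : ℕ) :
    EReal.exp (((Real.log 2 / 3 : ℝ) : EReal) * ((3 * M : ℕ) : EReal)) = (2 : ENNReal) ^ M := by
  have h1 : (((Real.log 2 / 3 : ℝ) : EReal) * ((3 * M : ℕ) : EReal))
      = (((M : ℝ) * Real.log 2 : ℝ) : EReal) := by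
    rw [← EReal.coe_natCast, ← EReal.coe_mul]
    congr 1
    push_cast
    ring
  rw [h1, EReal.exp_coe, Real.exp_nat_mul, Real.exp_log (by norm_num : (0 : ℝ) < 2),
    ENNReal.ofReal_pow (by norm_num : (0 : ℝ) ≤ 2)]
  congr 1
  norm_num

theorem entropy_lower_bound {X : Type*} [PseudoMetricSpace X] (T : X → X) (ε : ℝ) (hε : 0 < ε)
    (h : ∀ M : ℕ, ∃ s : Finset X, s.card = 2 ^ M ∧
      ∀ x ∈ s, ∀ y ∈ s, x ≠ y → ∃ i, i < 3 * M ∧ ε ≤ dist (T^[i] x) (T^[i] y)) :
    ((Real.log 2 / 3 : ℝ) : EReal) ≤ Dynamics.coverEntropy T Set.univ := by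
  have hU : {p : X × X | dist p.1 p.2 < ε / 2} ∈ 𝓤 X := Metric.dist_mem_uniformity (half_pos hε)
  refine le_trans ?_ (Dynamics.netEntropyEntourage_le_coverEntropy (T := T) (F := Set.univ) hU)
  unfold Dynamics.netEntropyEntourage
  apply Frequently.le_expGrowthSup
  rw [Filter.frequently_atTop]
  intro N
  refine ⟨3 * N, by omega, ?_⟩
  obtain ⟨s, hcard, hsep⟩ := h N
  have hnet := entropyAux_isDynNetIn T ε (3 * N) s hsep
  have hle := hnet.card_le_netMaxcard
  rw [entropyAux_exp]
  have h2 : ((2 : ENNReal) ^ N) = (((s.card : ℕ∞)) : ENNReal) := by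
    rw [hcard]
    push_cast
    rfl
  rw [h2]
  exact ENat.toENNReal_le.mpr hle

end Vale.Agent.Lib.P108
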