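import Vale.Agent.Lib.P108.Defs

/-!
# Data of a topological horseshoe for the standard map

Two intervals `[-1/12, 1/12]` (symbol `false`) and `[2/3, 91/100]` (symbol `true`) on the
`x`-axis, and integer shifts for the second order recursion
`x (i + 2) = 2 x (i + 1) + k sin (2 π x (i + 1)) - x i - shift`.
-/

namespace Vale.Agent.Lib.P108

/-- Left end points of the two intervals. -/
noncomputable def loB (b : Bool) : ℝ := if b then 2 / 3 else -1 / 12

/-- Right end points of the two intervals. -/
noncomputable def hiB (b : Bool) : ℝ := if b then 91 / 100 else 1 / 12

/-- The integer shift attached to a triple of consecutive symbols. -/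
def shiftB (a b c : Bool) : ℤ := if c then -1 else if b then 1 else if a then -1 else 0

/-- Admissible triples of consecutive symbols: at most one of them is `true`. -/
def admB (a b c : Bool) : Prop :=
  (a = false ∨ b = false) ∧ (b = false ∨ c = false) ∧ (a = false ∨ c = false)

/-- The function `h_k (v) = 2 v + k sin (2 π v)`. -/
noncomputable def hfun (k v : ℝ) : ℝ := 2 * v + k * Real.sin (2 * Real.pi * v)

theorem continuous_hfun (k : ℝ) : Continuous (hfun k) := by
  unfold hfun
  fun_prop

theorem loB_le_hiB (b : Bool) : loB b ≤ hiB b := by
  cases b <;> norm_num [loB, hiB]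

end Vale.Agent.Lib.P108
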