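import Vale.Agent.Lib.P108.Horseshoe

/-!
# Explicit inequalities for the horseshoe of the standard map

For `3/5 ≤ k ≤ 13/20` the function `h_k (v) = 2 v + k sin (2 π v)` maps each of the two
intervals across the intervals required by every admissible triple of symbols.
-/

namespace Vale.Agent.Lib.P108

theorem num_sin_neg_twelfth : Real.sin (2 * Real.pi * (-1 / 12)) = -1 / 2 := by
  have h : 2 * Real.pi * (-1 / 12) = -(Real.pi / 6) := by ring
  rw [h, Real.sin_neg, Real.sin_pi_div_six]
  norm_num

theorem num_sin_twelfth : Real.sin (2 * Real.pi * (1 / 12)) = 1 / 2 := by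
  have h : 2 * Real.pi * (1 / 12) = Real.pi / 6 := by ring
  rw [h, Real.sin_pi_div_six]

theorem num_sin_two_thirds : Real.sin (2 * Real.pi * (2 / 3)) = -(Real.sqrt 3 / 2) := by
  have h : 2 * Real.pi * (2 / 3) = Real.pi / 3 + Real.pi := by ring
  rw [h, Real.sin_add_pi, Real.sin_pi_div_three]

theorem num_sqrt_three : (5 / 3 : ℝ) ≤ Real.sqrt 3 := by
  apply Real.le_sqrt_of_sq_le
  norm_num

theorem num_loB_false : loB false = -1 / 12 := by
  simp [loB]

theorem num_loB_true : loB true = 2 / 3 := by
  simp [loB]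

theorem num_hiB_false : hiB false = 1 / 12 := by
  simp [hiB]

theorem num_hiB_true : hiB true = 91 / 100 := by
  simp [hiB]

theorem num_hfun_lo_false (k : ℝ) : hfun k (loB false) = -1 / 6 - k / 2 := by
  rw [num_loB_false]
  unfold hfun
  rw [num_sin_neg_twelfth]
  ring

theorem num_hfun_hi_false (k : ℝ) : hfun k (hiB false) = 1 / 6 + k / 2 := by
  rw [num_hiB_false]
  unfold hfun
  rw [num_sin_twelfth]
  ring

theorem num_hfun_lo_true (k : ℝ) : hfun k (loB true) = 4 / 3 - k * (Real.sqrt 3 / 2) := by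
  rw [num_loB_true]
  unfold hfun
  rw [num_sin_two_thirds]
  ring

theorem num_hfun_hi_true (k : ℝ) (hk : 0 ≤ k) : 182 / 100 - k ≤ hfun k (hiB true) := by
  rw [num_hiB_true]
  unfold hfun
  have h1 : -1 ≤ Real.sin (2 * Real.pi * (91 / 100)) := Real.neg_one_le_sin _
  have h2 : k * (-1) ≤ k * Real.sin (2 * Real.pi * (91 / 100)) :=
    mul_le_mul_of_nonneg_left h1 hk
  linarith

theorem num_shift_fff : ((shiftB false false false : ℤ) : ℝ) = 0 := by
  simp [shiftB]

theorem num_shift_fft : ((shiftB false false true : ℤ) : ℝ) = -1 := by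
  simp [shiftB]

theorem num_shift_ftf : ((shiftB false true false : ℤ) : ℝ) = 1 := by
  simp [shiftB]

theorem num_shift_tff : ((shiftB true false false : ℤ) : ℝ) = -1 := by
  simp [shiftB]

theorem cover_lo (k : ℝ) (hk1 : 3 / 5 ≤ k) (hk2 : k ≤ 13 / 20) (a b c : Bool)
    (h : admB a b c) : hfun k (loB b) - loB a - (shiftB a b c : ℝ) ≤ loB c := by
  have hs3 := num_sqrt_three
  have _hk2 := hk2
  have hks : 1 ≤ k * Real.sqrt 3 := by nlinarith
  cases a <;> cases b <;> cases c
  · rw [num_hfun_lo_false, num_loB_false, num_shift_fff]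
    linarith
  · rw [num_hfun_lo_false, num_loB_false, num_loB_true, num_shift_fft]
    linarith
  · rw [num_hfun_lo_true, num_loB_false, num_shift_ftf]
    linarith
  · exact absurd h (by simp [admB])
  · rw [num_hfun_lo_false, num_loB_false, num_loB_true, num_shift_tff]
    linarith
  · exact absurd h (by simp [admB])
  · exact absurd h (by simp [admB])
  · exact absurd h (by simp [admB])

theorem cover_hi (k : ℝ) (hk1 : 3 / 5 ≤ k) (hk2 : k ≤ 13 / 20) (a b c : Bool)
    (h : admB a b c) : hiB c ≤ hfun k (hiB b) - hiB a - (shiftB a b c : ℝ) := by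
  have hk0 : 0 ≤ k := by linarith
  cases a <;> cases b <;> cases c
  · rw [num_hfun_hi_false, num_hiB_false, num_shift_fff]
    linarith
  · rw [num_hfun_hi_false, num_hiB_false, num_hiB_true, num_shift_fft]
    linarith
  · have h1 := num_hfun_hi_true k hk0
    rw [num_hiB_false, num_shift_ftf]
    linarith
  · exact absurd h (by simp [admB])
  · rw [num_hfun_hi_false, num_hiB_false, num_hiB_true, num_shift_tff]
    linarith
  · exact absurd h (by simp [admB])
  · exact absurd h (by simp [admB])
  · exact absurd h (by simp [admB])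

theorem two_div_pi_mem : (3 / 5 : ℝ) ≤ 2 / Real.pi ∧ 2 / Real.pi ≤ (13 / 20 : ℝ) := by
  have h1 := Real.pi_gt_d2
  have h2 := Real.pi_lt_d2
  norm_num at h1 h2
  constructor
  · rw [le_div_iff₀ Real.pi_pos]
    linarith
  · rw [div_le_iff₀ Real.pi_pos]
    linarith

end Vale.Agent.Lib.P108
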