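import Mathlib

namespace Vale.Agent.Lib.P108

/-- The two arcs `[-1/12, 1/12]` and `[2/3, 91/100]` of the circle `ℝ / ℤ` are at distance at
least `1/200`. -/
theorem circle_sep (u v : ℝ) (hu : u ∈ Set.Icc (-1 / 12 : ℝ) (1 / 12))
    (hv : v ∈ Set.Icc (2 / 3 : ℝ) (91 / 100)) :
    (1 / 200 : ℝ) ≤ dist (u : UnitAddCircle) (v : UnitAddCircle) := by
  obtain ⟨hu1, hu2⟩ := hu
  obtain ⟨hv1, hv2⟩ := hv
  rw [dist_eq_norm, ← AddCircle.coe_sub, UnitAddCircle.norm_eq]
  have hr : round (u - v) = -1 := by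
    rw [round_eq, Int.floor_eq_iff]
    constructor
    · push_cast
      linarith
    · push_cast
      linarith
  rw [hr]
  push_cast
  rw [abs_of_nonneg (by linarith)]
  linarith

end Vale.Agent.Lib.P108
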