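import Mathlib

/-!
# A one-dimensional shooting lemma

A continuous function which crosses an interval of values does so along a sub-interval of
parameters, and a second-order recursion whose admissible steps stretch each interval of a
family across the next one has orbits following any admissible word.
-/

namespace Vale.Agent.Lib.P108

/-- A continuous function with `φ s ≤ l ≤ r ≤ φ t` maps some sub-interval `[s', t']` of
`[s, t]` into `[l, r]`, with `φ s' = l` and `φ t' = r`. -/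
theorem exists_subinterval {φ : ℝ → ℝ} (hφ : Continuous φ) {s t l r : ℝ} (hst : s ≤ t)
    (hlr : l ≤ r) (hs : φ s ≤ l) (ht : r ≤ φ t) :
    ∃ s' t', s ≤ s' ∧ s' ≤ t' ∧ t' ≤ t ∧ φ s' = l ∧ φ t' = r ∧
      ∀ p ∈ Set.Icc s' t', φ p ∈ Set.Icc l r := by
  have hS₁c : IsClosed {p : ℝ | p ∈ Set.Icc s t ∧ φ p ≤ l} :=
    isClosed_Icc.inter (isClosed_le hφ continuous_const)
  have hS₁ne : ({p : ℝ | p ∈ Set.Icc s t ∧ φ p ≤ l}).Nonempty := ⟨s, ⟨le_refl s, hst⟩, hs⟩
  have hS₁b : BddAbove {p : ℝ | p ∈ Set.Icc s t ∧ φ p ≤ l} := ⟨t, fun p hp => hp.1.2⟩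
  have hs'mem := hS₁c.csSup_mem hS₁ne hS₁b
  obtain ⟨s', hs'def⟩ : ∃ s', s' = sSup {p : ℝ | p ∈ Set.Icc s t ∧ φ p ≤ l} := ⟨_, rfl⟩
  rw [← hs'def] at hs'mem
  have hs'max : ∀ p, p ∈ Set.Icc s t → φ p ≤ l → p ≤ s' := by
    intro p hp hpl
    rw [hs'def]
    exact le_csSup hS₁b ⟨hp, hpl⟩
  obtain ⟨⟨hss', hs't⟩, hφs'⟩ := hs'mem
  have hφs'eq : φ s' = l := by
    obtain ⟨q, hq, hqe⟩ :=
      intermediate_value_Icc hs't hφ.continuousOn ⟨hφs', hlr.trans ht⟩
    have hqs' : q ≤ s' := hs'max q ⟨hss'.trans hq.1, hq.2⟩ hqe.le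
    have hqeq : q = s' := le_antisymm hqs' hq.1
    rw [← hqeq]
    exact hqe
  have hS₂c : IsClosed {p : ℝ | p ∈ Set.Icc s' t ∧ r ≤ φ p} :=
    isClosed_Icc.inter (isClosed_le continuous_const hφ)
  have hS₂ne : ({p : ℝ | p ∈ Set.Icc s' t ∧ r ≤ φ p}).Nonempty := ⟨t, ⟨hs't, le_refl t⟩, ht⟩
  have hS₂b : BddBelow {p : ℝ | p ∈ Set.Icc s' t ∧ r ≤ φ p} := ⟨s', fun p hp => hp.1.1⟩
  have ht'mem := hS₂c.csInf_mem hS₂ne hS₂b
  obtain ⟨t', ht'def⟩ : ∃ t', t' = sInf {p : ℝ | p ∈ Set.Icc s' t ∧ r ≤ φ p} := ⟨_, rfl⟩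
  rw [← ht'def] at ht'mem
  have ht'min : ∀ p, p ∈ Set.Icc s' t → r ≤ φ p → t' ≤ p := by
    intro p hp hpr
    rw [ht'def]
    exact csInf_le hS₂b ⟨hp, hpr⟩
  obtain ⟨⟨hs't', ht't⟩, hφt'⟩ := ht'mem
  have hφt'eq : φ t' = r := by
    obtain ⟨q, hq, hqe⟩ :=
      intermediate_value_Icc hs't' hφ.continuousOn ⟨by rw [hφs'eq]; exact hlr, hφt'⟩
    have hqt' : t' ≤ q := ht'min q ⟨hq.1, hq.2.trans ht't⟩ hqe.ge
    have hqeq : q = t' := le_antisymm hq.2 hqt'
    rw [← hqeq]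
    exact hqe
  refine ⟨s', t', hss', hs't', ht't, hφs'eq, hφt'eq, fun p hp => ⟨?_, ?_⟩⟩
  · by_contra hcon
    push Not at hcon
    have hle := hs'max p ⟨hss'.trans hp.1, hp.2.trans ht't⟩ hcon.le
    have hps : p = s' := le_antisymm hle hp.1
    rw [hps, hφs'eq] at hcon
    exact lt_irrefl _ hcon
  · by_contra hcon
    push Not at hcon
    have hle := ht'min p ⟨hp.1, hp.2.trans ht't⟩ hcon.le
    have hpt : p = t' := le_antisymm hp.2 hle
    rw [hpt, hφt'eq] at hcon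
    exact lt_irrefl _ hcon

/-- The pair of consecutive values of the recursion `x (i + 2) = h (x (i + 1)) - x i - j ..`
started from `(x₀, p)`. -/
noncomputable def shootPair (h : ℝ → ℝ) (j : Bool → Bool → Bool → ℝ) (w : ℕ → Bool) (x₀ : ℝ) :
    ℕ → ℝ → ℝ × ℝ
  | 0, p => (x₀, p)
  | i + 1, p => ((shootPair h j w x₀ i p).2,
      h (shootPair h j w x₀ i p).2 - (shootPair h j w x₀ i p).1 - j (w i) (w (i + 1)) (w (i + 2)))

theorem shootPair_continuous (h : ℝ → ℝ) (hh : Continuous h) (j : Bool → Bool → Bool → ℝ)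
    (w : ℕ → Bool) (x₀ : ℝ) (i : ℕ) : Continuous (fun p => shootPair h j w x₀ i p) := by
  induction i with
  | zero => exact continuous_const.prodMk continuous_id
  | succ i ih =>
    exact (continuous_snd.comp ih).prodMk
      (((hh.comp (continuous_snd.comp ih)).sub (continuous_fst.comp ih)).sub continuous_const)

theorem shootPair_rec (h : ℝ → ℝ) (j : Bool → Bool → Bool → ℝ) (w : ℕ → Bool) (x₀ : ℝ) (i : ℕ)
    (p : ℝ) :
    (shootPair h j w x₀ (i + 2) p).1 = h (shootPair h j w x₀ (i + 1) p).1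
      - (shootPair h j w x₀ i p).1 - j (w i) (w (i + 1)) (w (i + 2)) := rfl

/-- Shooting: if for every admissible triple `(a, b, c)` the map
`(x, y) ↦ h y - x - j a b c` stretches the interval `[lo b, hi b]` across `[lo c, hi c]`
uniformly in `x ∈ [lo a, hi a]`, then every admissible word is followed by an orbit of the
recursion. -/
theorem shooting (h : ℝ → ℝ) (hh : Continuous h) (lo hi : Bool → ℝ) (hlohi : ∀ b, lo b ≤ hi b)
    (j : Bool → Bool → Bool → ℝ) (adm : Bool → Bool → Bool → Prop)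
    (hcov1 : ∀ a b c, adm a b c → h (lo b) - lo a - j a b c ≤ lo c)
    (hcov2 : ∀ a b c, adm a b c → hi c ≤ h (hi b) - hi a - j a b c)
    (w : ℕ → Bool) (hw : ∀ i, adm (w i) (w (i + 1)) (w (i + 2))) (N : ℕ) :
    ∃ x : ℕ → ℝ, (∀ i, i ≤ N → x i ∈ Set.Icc (lo (w i)) (hi (w i))) ∧
      ∀ i, i + 2 ≤ N → x (i + 2) = h (x (i + 1)) - x i - j (w i) (w (i + 1)) (w (i + 2)) := by
  have hclaim : ∀ n : ℕ, ∃ s t : ℝ, s ≤ t ∧
      (shootPair h j w (lo (w 0)) (n + 1) s).1 = lo (w (n + 1)) ∧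
      (shootPair h j w (lo (w 0)) (n + 1) t).1 = hi (w (n + 1)) ∧
      ∀ p ∈ Set.Icc s t, ∀ i, i ≤ n + 1 →
        (shootPair h j w (lo (w 0)) i p).1 ∈ Set.Icc (lo (w i)) (hi (w i)) := by
    intro n
    induction n with
    | zero =>
      refine ⟨lo (w 1), hi (w 1), hlohi _, rfl, rfl, fun p hp i hi1 => ?_⟩
      rcases Nat.le_one_iff_eq_zero_or_eq_one.mp hi1 with h0 | h1
      · rw [h0]
        exact ⟨le_refl _, hlohi _⟩
      · rw [h1]
        exact hp
    | succ n ih =>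
      obtain ⟨s, t, hst, hs, ht, hmem⟩ := ih
      have hcont : Continuous (fun p => (shootPair h j w (lo (w 0)) (n + 2) p).1) :=
        continuous_fst.comp (shootPair_continuous h hh j w (lo (w 0)) (n + 2))
      have hsn := hmem s ⟨le_refl s, hst⟩ n (by omega)
      have htn := hmem t ⟨hst, le_refl t⟩ n (by omega)
      have hφs : (shootPair h j w (lo (w 0)) (n + 2) s).1 ≤ lo (w (n + 2)) := by
        rw [shootPair_rec, hs]
        have h1 := hcov1 _ _ _ (hw n)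
        linarith [hsn.1]
      have hφt : hi (w (n + 2)) ≤ (shootPair h j w (lo (w 0)) (n + 2) t).1 := by
        rw [shootPair_rec, ht]
        have h1 := hcov2 _ _ _ (hw n)
        linarith [htn.2]
      obtain ⟨s', t', hss', hs't', ht't, hs'eq, ht'eq, hsub⟩ :=
        exists_subinterval hcont hst (hlohi (w (n + 2))) hφs hφt
      refine ⟨s', t', hs't', hs'eq, ht'eq, fun p hp i hi2 => ?_⟩
      rcases Nat.lt_or_ge i (n + 2) with hlt | hge
      · exact hmem p ⟨hss'.trans hp.1, hp.2.trans ht't⟩ i (by omega)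
      · have hi3 : i = n + 2 := by omega
        rw [hi3]
        exact hsub p hp
  rcases Nat.eq_zero_or_pos N with hN | hN
  · refine ⟨fun _ => lo (w 0), fun i hi0 => ?_, fun i hi0 => ?_⟩
    · have hi1 : i = 0 := by omega
      rw [hi1]
      exact ⟨le_refl _, hlohi _⟩
    · omega
  · obtain ⟨n, rfl⟩ : ∃ n, N = n + 1 := ⟨N - 1, by omega⟩
    obtain ⟨s, t, hst, -, -, hmem⟩ := hclaim n
    refine ⟨fun i => (shootPair h j w (lo (w 0)) i s).1, fun i hi1 => ?_, fun i _ => ?_⟩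
    · exact hmem s ⟨le_refl s, hst⟩ i hi1
    · exact shootPair_rec h j w (lo (w 0)) i s

end Vale.Agent.Lib.P108
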