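import Vale.Agent.Lib.P108.Defs

/-!
# Orbits of the standard map from real sequences

A real sequence satisfying the second order recursion of the standard map up to integer shifts
gives an orbit of the standard map on the torus.
-/

namespace Vale.Agent.Lib.P108

/-- Adding an integer does not change the class in `ℝ / ℤ`. -/
theorem torus_coe_add_int (t : ℝ) (n : ℤ) :
    ((t + (n : ℝ) : ℝ) : UnitAddCircle) = (t : UnitAddCircle) := by
  have h : ((n : ℝ) : UnitAddCircle) = 0 := by
    rw [AddCircle.coe_eq_zero_iff]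
    exact ⟨n, by rw [zsmul_eq_mul, mul_one]⟩
  rw [AddCircle.coe_add, h, add_zero]

theorem stdMap_iterate_of_seq (k : ℝ) (x : ℕ → ℝ) (N : ℕ) (j : ℕ → ℤ)
    (hx : ∀ i, i + 2 ≤ N →
      x (i + 2) = 2 * x (i + 1) + k * Real.sin (2 * Real.pi * x (i + 1)) - x i - (j i : ℝ)) :
    ∀ i, i + 1 ≤ N →
      (stdMap k)^[i] ((x 1 : UnitAddCircle), ((x 1 - x 0 : ℝ) : UnitAddCircle))
        = ((x (i + 1) : UnitAddCircle), ((x (i + 1) - x i : ℝ) : UnitAddCircle)) := by
  intro i
  induction i with
  | zero =>
    intro _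
    rfl
  | succ i ih =>
    intro hi
    have h := hx i (by omega)
    have e1 : x (i + 1) + (x (i + 1) - x i) + k * Real.sin (2 * Real.pi * x (i + 1))
        = x (i + 1 + 1) + (j i : ℝ) := by
      rw [show i + 1 + 1 = i + 2 from rfl, h]
      ring
    have e2 : (x (i + 1) - x i) + k * Real.sin (2 * Real.pi * x (i + 1))
        = (x (i + 1 + 1) - x (i + 1)) + (j i : ℝ) := by
      rw [show i + 1 + 1 = i + 2 from rfl, h]
      ring
    rw [Function.iterate_succ_apply', ih (by omega), stdMap_coe, e1, e2, torus_coe_add_int,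
      torus_coe_add_int]

end Vale.Agent.Lib.P108
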