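import Vale.Agent.Lib.P108.Horseshoe
import Vale.Agent.Lib.P108.Shoot
import Vale.Agent.Lib.P108.Numerics
import Vale.Agent.Lib.P108.Torus
import Vale.Agent.Lib.P108.Separation
import Vale.Agent.Lib.P108.Entropy

/-!
# Positive topological entropy of the standard map for `3/5 ≤ k ≤ 13/20`
-/

namespace Vale.Agent.Lib.P108

/-- The word attached to a bit string of length `M`: the bit `m` sits at position `3 m + 1`,
all other positions carry `false`. -/
def wordOf (M : ℕ) (b : Fin M → Bool) (i : ℕ) : Bool :=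
  if h : i % 3 = 1 ∧ i / 3 < M then b ⟨i / 3, h.2⟩ else false

theorem wordOf_true {M : ℕ} {b : Fin M → Bool} {i : ℕ} (h : wordOf M b i = true) :
    i % 3 = 1 := by
  unfold wordOf at h
  split_ifs at h with h1
  exact h1.1

theorem wordOf_false_or {M : ℕ} (b : Fin M → Bool) {i i' : ℕ} (h : i % 3 ≠ 1 ∨ i' % 3 ≠ 1) :
    wordOf M b i = false ∨ wordOf M b i' = false := by
  rcases h with h | h
  · left
    by_contra hc
    exact h (wordOf_true (by simpa using hc))
  · right
    by_contra hc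
    exact h (wordOf_true (by simpa using hc))

theorem wordOf_adm (M : ℕ) (b : Fin M → Bool) (i : ℕ) :
    admB (wordOf M b i) (wordOf M b (i + 1)) (wordOf M b (i + 2)) := by
  refine ⟨wordOf_false_or b ?_, wordOf_false_or b ?_, wordOf_false_or b ?_⟩ <;> omega

theorem wordOf_at (M : ℕ) (b : Fin M → Bool) (m : Fin M) : wordOf M b (3 * m + 1) = b m := by
  unfold wordOf
  have h1 : (3 * (m : ℕ) + 1) % 3 = 1 := by omega
  have h2 : (3 * (m : ℕ) + 1) / 3 = m := by omega
  have h3 : (3 * (m : ℕ) + 1) % 3 = 1 ∧ (3 * (m : ℕ) + 1) / 3 < M := ⟨h1, by rw [h2]; exact m.2⟩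
  rw [dif_pos h3]
  congr 1
  exact Fin.ext h2

/-- For every bit string there is a point of the torus whose orbit visits, at the times
`3 m`, the interval coded by the bit `m`. -/
theorem exists_orbit (k : ℝ) (hk1 : 3 / 5 ≤ k) (hk2 : k ≤ 13 / 20) (M : ℕ) (b : Fin M → Bool) :
    ∃ P : UnitAddCircle × UnitAddCircle, ∀ m : Fin M, ∃ u : ℝ,
      u ∈ Set.Icc (loB (b m)) (hiB (b m)) ∧ ((stdMap k)^[3 * (m : ℕ)] P).1 = (u : UnitAddCircle) := by
  obtain ⟨x, hx1, hx2⟩ := shooting (hfun k) (continuous_hfun k) loB hiB loB_le_hiB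
    (fun a b c => (shiftB a b c : ℝ)) admB (cover_lo k hk1 hk2) (cover_hi k hk1 hk2)
    (wordOf M b) (wordOf_adm M b) (3 * M + 1)
  refine ⟨((x 1 : UnitAddCircle), ((x 1 - x 0 : ℝ) : UnitAddCircle)), fun m => ?_⟩
  have hm : (m : ℕ) < M := m.2
  have hit := stdMap_iterate_of_seq k x (3 * M + 1)
    (fun i => shiftB (wordOf M b i) (wordOf M b (i + 1)) (wordOf M b (i + 2)))
    (fun i hi => by
      have := hx2 i hi
      simpa [hfun] using this)
    (3 * (m : ℕ)) (by omega)
  refine ⟨x (3 * (m : ℕ) + 1), ?_, ?_⟩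
  · have := hx1 (3 * (m : ℕ) + 1) (by omega)
    rwa [wordOf_at] at this
  · rw [hit]

theorem sep_of_bits (u v : ℝ) (c d : Bool) (hcd : c ≠ d) (hu : u ∈ Set.Icc (loB c) (hiB c))
    (hv : v ∈ Set.Icc (loB d) (hiB d)) :
    (1 / 200 : ℝ) ≤ dist (u : UnitAddCircle) (v : UnitAddCircle) := by
  cases c <;> cases d
  · exact absurd rfl hcd
  · exact circle_sep u v (by simpa [loB, hiB] using hu) (by simpa [loB, hiB] using hv)
  · rw [dist_comm]
    exact circle_sep v u (by simpa [loB, hiB] using hv) (by simpa [loB, hiB] using hu)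
  · exact absurd rfl hcd

/-- The standard map has topological entropy at least `(log 2) / 3` for `3/5 ≤ k ≤ 13/20`. -/
theorem stdMap_entropy (k : ℝ) (hk1 : 3 / 5 ≤ k) (hk2 : k ≤ 13 / 20) :
    ((Real.log 2 / 3 : ℝ) : EReal) ≤ Dynamics.coverEntropy (stdMap k) Set.univ := by
  apply entropy_lower_bound (stdMap k) (1 / 200) (by norm_num)
  intro M
  choose P hP using exists_orbit k hk1 hk2 M
  have hsep : ∀ b b' : Fin M → Bool, b ≠ b' →
      ∃ i, i < 3 * M ∧ (1 / 200 : ℝ) ≤ dist ((stdMap k)^[i] (P b)) ((stdMap k)^[i] (P b')) := by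
    intro b b' hbb
    obtain ⟨m, hm⟩ : ∃ m, b m ≠ b' m := by
      by_contra hcon
      push Not at hcon
      exact hbb (funext hcon)
    obtain ⟨u, hu, hu'⟩ := hP b m
    obtain ⟨v, hv, hv'⟩ := hP b' m
    refine ⟨3 * (m : ℕ), by have := m.2; omega, ?_⟩
    have h1 := sep_of_bits u v (b m) (b' m) hm hu hv
    rw [Prod.dist_eq, hu', hv']
    exact le_trans h1 (le_max_left _ _)
  have hinj : Function.Injective P := by
    intro b b' hbb
    by_contra hne
    obtain ⟨i, -, hi⟩ := hsep b b' hne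
    rw [hbb, dist_self] at hi
    norm_num at hi
  refine ⟨Finset.univ.image P, ?_, ?_⟩
  · rw [Finset.card_image_of_injective _ hinj]
    simp
  · intro x hx y hy hxy
    obtain ⟨b, -, rfl⟩ := Finset.mem_image.mp hx
    obtain ⟨b', -, rfl⟩ := Finset.mem_image.mp hy
    exact hsep b b' (fun h => hxy (by rw [h]))

end Vale.Agent.Lib.P108
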